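import Vale.Agent.Iso4.Main

open scoped ContDiff

namespace Vale.Agent.Results.P205.Closed

/-- The smooth Riemannian metrics on the tangent bundle of a smooth manifold `M` without boundary
modelled on the normed space `E`. -/
def SmoothMetric (E : Type) [NormedAddCommGroup E] [NormedSpace ℝ E] (M : Type*)
    [TopologicalSpace M] [ChartedSpace E M] [IsManifold (modelWithCornersSelf ℝ E) ∞ M] : Type _ :=
  Bundle.ContMDiffRiemannianMetric (modelWithCornersSelf ℝ E) ∞ E (fun p : M => TangentSpace (modelWithCornersSelf ℝ E) p)

/-- The value `g_p(v, w)` of the metric `g` on two tangent vectors at `p`. -/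
noncomputable def metricAt {E : Type} [NormedAddCommGroup E] [NormedSpace ℝ E] {M : Type*}
    [TopologicalSpace M] [ChartedSpace E M] [IsManifold (modelWithCornersSelf ℝ E) ∞ M] (g : SmoothMetric E M)
    (p : M) (v w : TangentSpace (modelWithCornersSelf ℝ E) p) : ℝ :=
  Bundle.ContMDiffRiemannianMetric.inner g p v w

/-- The differential `dF_p(v)` of a map `F` from a manifold `M` to a normed space `V`. -/
noncomputable def differential {E : Type} [NormedAddCommGroup E] [NormedSpace ℝ E] {M : Type*}
    [TopologicalSpace M] [ChartedSpace E M] {V : Type} [NormedAddCommGroup V] [NormedSpace ℝ V]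
    (F : M → V) (p : M) (v : TangentSpace (modelWithCornersSelf ℝ E) p) : V :=
  mfderiv (modelWithCornersSelf ℝ E) (modelWithCornersSelf ℝ V) F p v

/-- `F` is a smooth isometric immersion of `(M, g)` into the inner product space `V`. -/
def IsSmoothIsometricImmersion {E : Type} [NormedAddCommGroup E] [NormedSpace ℝ E] {M : Type*}
    [TopologicalSpace M] [ChartedSpace E M] [IsManifold (modelWithCornersSelf ℝ E) ∞ M]
    {V : Type} [NormedAddCommGroup V] [InnerProductSpace ℝ V]
    (g : SmoothMetric E M) (F : M → V) : Prop :=
  ContMDiff (modelWithCornersSelf ℝ E) (modelWithCornersSelf ℝ V) ∞ F ∧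
    ∀ (p : M) (v w : TangentSpace (modelWithCornersSelf ℝ E) p),
      inner ℝ (differential F p v) (differential F p w) = metricAt g p v w

/-- Every closed smooth Riemannian surface admits a smooth isometric immersion into Euclidean
four-space. -/
theorem result {M : Type*} [TopologicalSpace M] [T2Space M] [CompactSpace M]
    [ChartedSpace (EuclideanSpace ℝ (Fin 2)) M]
    [IsManifold (modelWithCornersSelf ℝ (EuclideanSpace ℝ (Fin 2))) ∞ M]
    (g : SmoothMetric (EuclideanSpace ℝ (Fin 2)) M) :
    ∃ F : M → EuclideanSpace ℝ (Fin 4), IsSmoothIsometricImmersion g F := by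
  obtain ⟨g', hg⟩ := Vale.Agent.Iso4.exists_met g
  obtain ⟨F, hF, h⟩ := Vale.Agent.Iso4.main' g'
  exact ⟨F, hF, fun p v w => (h p v w).trans (hg p v w)⟩

end Vale.Agent.Results.P205.Closed
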