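import Vale.Agent.P205.Torus

open scoped ContDiff Matrix

namespace Vale.Agent.Results.P205.Torus

/-- Every smooth Riemannian metric on the two-torus (a smooth field `g` of symmetric positive
definite matrices on the plane, periodic under the integer lattice) is induced by a smooth
periodic map into Euclidean four-space. -/
theorem result (g : (Fin 2 → ℝ) → Matrix (Fin 2) (Fin 2) ℝ)
    (smooth : ∀ i j, ContDiff ℝ ∞ fun x => g x i j)
    (pos : ∀ x, (g x).PosDef)
    (periodic : ∀ (x : Fin 2 → ℝ) (k : Fin 2 → ℤ), g (x + fun i => (k i : ℝ)) = g x) :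
    ∃ F : (Fin 2 → ℝ) → EuclideanSpace ℝ (Fin 4),
      ContDiff ℝ ∞ F ∧
      (∀ (x : Fin 2 → ℝ) (k : Fin 2 → ℤ), F (x + fun i => (k i : ℝ)) = F x) ∧
      ∀ x v w, inner ℝ (fderiv ℝ F x v) (fderiv ℝ F x w) = v ⬝ᵥ g x *ᵥ w :=
  Vale.Agent.P205.torus_matrix g smooth periodic pos

end Vale.Agent.Results.P205.Torus
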